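import Vale.Agent.P176.Reps

open CategoryTheory

namespace Vale.Agent.Results.P176.Counterexample

/-- Over every field of characteristic zero there is a finite-dimensional algebra with finitely
generated left modules of finite but arbitrarily large projective dimension. -/
theorem result (K : Type) [Field K] [CharZero K] :
    ∃ (A : Type) (_ : Ring A) (_ : Algebra K A), Module.Finite K A ∧
      ∀ n : ℕ, ∃ M : ModuleCat.{0} A, Module.Finite A M ∧
        (n : WithBot ℕ∞) ≤ projectiveDimension M ∧ projectiveDimension M ≠ ⊤ := by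
  refine ⟨Vale.Agent.P176.Alg K, inferInstance, inferInstance, inferInstance, fun n => ?_⟩
  refine ⟨ModuleCat.of _ (Vale.Agent.P176.YY (Vale.Agent.P176.Fk K (1 + n + 1))),
    inferInstance, ?_, ?_⟩
  · rw [projectiveDimension_ge_iff]
    exact fun h => Vale.Agent.P176.not_PD_Yk n (Vale.Agent.P176.PD.mono h (Nat.le_succ n))
  · obtain ⟨m, hm⟩ := Vale.Agent.P176.FP_Yk (K := K) (1 + n + 1)
    rw [projectiveDimension_ne_top_iff]
    exact ⟨m, Vale.Agent.P176.PD.mono hm (Nat.le_succ m)⟩

end Vale.Agent.Results.P176.Counterexample
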